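import Vale.Agent.Lib.P154.Neg.LP.B4955.D

/-!
Part of the computations of a certificate for a restricted range of `theta`.
-/

namespace Vale.Agent.Lib.P154.Neg.B4955

open Vale.Agent.Lib.P154.Neg.Kron Vale.Agent.Lib.P154.Neg Vale.Agent.Lib.P154.Neg.Cst

theorem ctX_1 : checkCT C.A C.eX (c02 (M0)) tX_1 = true := by decide +kernel

theorem ctX_3 : checkCT C.A C.eX (c12 (c20 (M0))) tX_3 = true := by decide +kernel

theorem ctX_5 : checkCT C.A C.eX (c02 (c21 (c20 (M0)))) tX_5 = true := by decide +kernel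

theorem ctX_7 : checkCT C.A C.eX (c12 (c20 (c21 (c20 (M0))))) tX_7 = true := by decide +kernel

theorem ctX_9 : checkCT C.A C.eX (c02 (c21 (c20 (c21 (c20 (M0)))))) tX_9 = true := by decide +kernel

end Vale.Agent.Lib.P154.Neg.B4955
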