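import Vale.Agent.Lib.P154.Neg.LP.B4955.D

/-!
Part of the computations of a certificate for a restricted range of `theta`.
-/

namespace Vale.Agent.Lib.P154.Neg.B4955

open Vale.Agent.Lib.P154.Neg.Kron Vale.Agent.Lib.P154.Neg Vale.Agent.Lib.P154.Neg.Cst

theorem ctY1_3 : checkCT C.A C.eY1 (c02 (c02 (c02 (MC C.a0 C.b0 C.c0)))) tY1_3 = true := by decide +kernel

end Vale.Agent.Lib.P154.Neg.B4955
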